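import Vale.Agent.Lib.P200.NV6

/-!
The Eisenbud-Green-Harris conjecture for a regular sequence of three forms in any number of
variables, over every field and for all degrees.
-/

open MvPolynomial Vale.Agent.Lib.P200.Defs

/-- For every field `K`, all `n ≥ 3`, all integers `1 ≤ a ≤ b ≤ c` and every homogeneous ideal `I` of
`K[x_1, ..., x_n]` containing a regular sequence of three forms of degrees `a, b, c`, there is a
monomial ideal containing `P = (x_1^a, x_2^b, x_3^c)`, generated by the monomials with exponents in
a set `s`, with the same Hilbert function as `I`. -/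
theorem Vale.Agent.Results.P200.Q1HeightThree.result {K : Type*} [Field K] (n : ℕ) (hn : 3 ≤ n)
    (a b c : ℕ) (ha : 1 ≤ a) (hab : a ≤ b) (hbc : b ≤ c) (f : Fin 3 → MvPolynomial (Fin n) K)
    (hf : ∀ i, (f i).IsHomogeneous (![a, b, c] i)) (hreg : IsRegularSeq f)
    (I : Ideal (MvPolynomial (Fin n) K)) (_hI : IsHomogeneousIdeal I) (hfI : ∀ i, f i ∈ I) :
    ∃ s : Set (Fin n →₀ ℕ),
      (powerIdeal hn ![a, b, c] : Ideal (MvPolynomial (Fin n) K)) ≤
        Ideal.span ((fun e => monomial e (1 : K)) '' s) ∧
      ∀ d, Module.finrank K (gradedPiece (Ideal.span ((fun e => monomial e (1 : K)) '' s)) d) =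
        Module.finrank K (gradedPiece I d) :=
  Vale.Agent.Lib.P200.NV.monomial_same_hilbert hn ha hab hbc f hf hreg I hfI
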