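import Vale.Agent.Results.P200.Q2Three
import Vale.Agent.Results.P200.Q1HeightThree

/-! Conjunction of the complementary hand-ins of this problem. -/

open MvPolynomial Vale.Agent.Lib.P200.Defs Vale.Agent.Lib.P200.BettiDefs
open MvPolynomial Vale.Agent.Lib.P200.Defs

/-- The conjunction of the statements of: Q2Three, Q1HeightThree. -/
theorem Vale.Agent.Results.P200.A0Conj.result :
    (∀ {K : Type*} [Field K] (a b c : ℕ) (ha : 1 ≤ a)
    (hab : a ≤ b) (hbc : b ≤ c) (f : Fin 3 → MvPolynomial (Fin 3) K)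
    (hf : ∀ i, (f i).IsHomogeneous (![a, b, c] i)) (hreg : IsRegularSeq f)
    (I : Ideal (MvPolynomial (Fin 3) K)) (_hI : IsHomogeneousIdeal I) (hfI : ∀ i, f i ∈ I),
      ∃ J : Ideal (MvPolynomial (Fin 3) K),
      J.restrictScalars K = lexPlusPowers (le_refl 3) ![a, b, c] I ∧
        ∀ (p : ℕ) (j : ℤ), betti3 I p j ≤ betti3 J p j) ∧
    (∀ {K : Type*} [Field K] (n : ℕ) (hn : 3 ≤ n)
    (a b c : ℕ) (ha : 1 ≤ a) (hab : a ≤ b) (hbc : b ≤ c) (f : Fin 3 → MvPolynomial (Fin n) K)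
    (hf : ∀ i, (f i).IsHomogeneous (![a, b, c] i)) (hreg : IsRegularSeq f)
    (I : Ideal (MvPolynomial (Fin n) K)) (_hI : IsHomogeneousIdeal I) (hfI : ∀ i, f i ∈ I),
      ∃ s : Set (Fin n →₀ ℕ),
      (powerIdeal hn ![a, b, c] : Ideal (MvPolynomial (Fin n) K)) ≤
        Ideal.span ((fun e => monomial e (1 : K)) '' s) ∧
      ∀ d, Module.finrank K (gradedPiece (Ideal.span ((fun e => monomial e (1 : K)) '' s)) d) =
        Module.finrank K (gradedPiece I d)) :=
  ⟨@Vale.Agent.Results.P200.Q2Three.result, @Vale.Agent.Results.P200.Q1HeightThree.result⟩
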