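import Vale.Agent.Lib.P200.Final

/-!
The Eisenbud-Green-Harris conjecture for regular sequences of degrees `(3, a, a)` in three
variables, over every field.
-/

open MvPolynomial Vale.Agent.Lib.P200.Defs

/-- For every field `K`, every `a ≥ 3` and every homogeneous ideal `I` of `K[x_1, x_2, x_3]`
containing a regular sequence of forms of degrees `3, a, a`, the graded subspace `J` attached to
`I` and `P = (x_1^3, x_2^a, x_3^a)` is an ideal. -/
theorem Vale.Agent.Results.P200.EGH3aa.result {K : Type*} [Field K] (a : ℕ) (ha : 3 ≤ a)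
    (f : Fin 3 → MvPolynomial (Fin 3) K)
    (hf : ∀ i, (f i).IsHomogeneous (![3, a, a] i)) (hreg : IsRegularSeq f)
    (I : Ideal (MvPolynomial (Fin 3) K)) (_hI : IsHomogeneousIdeal I) (hfI : ∀ i, f i ∈ I) :
    ∃ J : Ideal (MvPolynomial (Fin 3) K),
      J.restrictScalars K = lexPlusPowers (le_refl 3) ![3, a, a] I :=
  Vale.Agent.Lib.P200.lexPlusPowers_ideal a ha f hf hreg I hfI
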