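import Vale.Agent.Lib.P200.Q2d

/-!
The lex-plus-powers conjecture in three variables: for a regular sequence of three forms in
`K[x_1, x_2, x_3]`, over every field and for all degrees, the lex-plus-powers subspace is an ideal
with graded Betti numbers at least those of `I`.
-/

open MvPolynomial Vale.Agent.Lib.P200.Defs Vale.Agent.Lib.P200.BettiDefs

/-- For every field `K`, all integers `1 ≤ a ≤ b ≤ c` and every homogeneous ideal `I` of
`K[x_1, x_2, x_3]` containing a regular sequence of forms of degrees `a, b, c`, the graded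
subspace `J` attached to `I` and `P = (x_1^a, x_2^b, x_3^c)` is an ideal, and
`β_{p,j}(S/I) ≤ β_{p,j}(S/J)` for all `p` and `j`. -/
theorem Vale.Agent.Results.P200.Q2Three.result {K : Type*} [Field K] (a b c : ℕ) (ha : 1 ≤ a)
    (hab : a ≤ b) (hbc : b ≤ c) (f : Fin 3 → MvPolynomial (Fin 3) K)
    (hf : ∀ i, (f i).IsHomogeneous (![a, b, c] i)) (hreg : IsRegularSeq f)
    (I : Ideal (MvPolynomial (Fin 3) K)) (_hI : IsHomogeneousIdeal I) (hfI : ∀ i, f i ∈ I) :
    ∃ J : Ideal (MvPolynomial (Fin 3) K),
      J.restrictScalars K = lexPlusPowers (le_refl 3) ![a, b, c] I ∧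
        ∀ (p : ℕ) (j : ℤ), betti3 I p j ≤ betti3 J p j :=
  Vale.Agent.Lib.P200.lexPlusPowers_betti3 a b c ha hab hbc f hf hreg I hfI
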